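import Vale.Agent.P025.R2.H746.Kap

/-!
# P025 (7.3), G-BRANCH (helper376): lifting of residue classes

`exists_lift` : a residue class at one extension of the Gauss norm lifts to an element which is
small at all the other extensions.
-/

open Polynomial IntermediateField

universe u

namespace P025H376

open Vale.Agent.P019P P025H373 P025H746

noncomputable section

section L1

variable {C K : Type u} [NontriviallyNormedField C] [IsUltrametricDist C] [Field K] [Algebra C K]

theorem exists_lift {z : K} [FiniteDimensional C⟮z⟯ K] {w : NV C K} (hw : w.OverG z) (α : kap w) :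
    ∃ a : K, w a ≤ 1 ∧ w.red a = α ∧ ∀ w' : NV C K, w'.OverG z → w' ≠ w → w' a < 1 := by
  obtain ⟨x, hx, hxα⟩ := NV.red_surj α
  obtain ⟨y, hy1, hy2⟩ := P025H458.exists_approx
    (fun v : {w : NV C K // w.OverG z} => v.1.av) (fun v => v.1.na) (fun v => v.1.ext')
    (fun a b h => Subtype.ext (NV.ext h)) ⟨w, hw⟩ x one_pos
  have h1 : w (y - x) < 1 := hy1
  have h2 : w y ≤ 1 := by
    have h3 := NV.add_le (w := w) h1.le hx
    rwa [sub_add_cancel] at h3
  refine ⟨y, h2, ?_, fun w' hw' hne => hy2 ⟨w', hw'⟩ fun h => hne (congrArg Subtype.val h)⟩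
  have h4 : y = (y - x) + x := (sub_add_cancel y x).symm
  rw [h4, NV.red_add h1.le hx, NV.red_of_lt h1, zero_add, hxα]

end L1

end

end P025H376
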