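import Vale.Agent.P025.R2.H725.SplitNorm

/-!
# P025 (7.3), G-BRANCH (helper376), L4a: a function near a `p`-th power

If `f = y ^ p (1 + l ^ p A)` with `1 < |A| < |l| ^ (-p)` is near a `p`-th power at `w`, then the
leading term of `A` is a `p`-th power in the residue field of `w`.
-/

open Polynomial P025H746 P025H725

namespace P025H376

variable {C K : Type*} [NormedField C] [IsUltrametricDist C] [Field K] [Algebra C K]
  {p : ℕ} {l : C} {w : NV C K}

theorem w_natCast (w : NV C K) (n : ℕ) : w (n : K) = ‖(n : C)‖ := by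
  rw [← w.ext', map_natCast (algebraMap C K)]

theorem w_one_add_of_lt {z : K} (hz : w z < 1) : w (1 + z) = 1 := by
  have h1 : w (1 + z) ≤ 1 := NV.add_le (by rw [map_one]) hz.le
  refine le_antisymm h1 ?_
  by_contra hlt
  push Not at hlt
  have h2 : w ((1 + z) + (-z)) < 1 := NV.add_lt hlt (by rwa [NV.map_neg'])
  rw [add_neg_cancel_right, map_one] at h2
  exact lt_irrefl _ h2

/-- `(1 + v) ^ p = 1 + v ^ p + O(p v)`. -/
theorem w_one_add_pow_sub (hp : p.Prime) {v : K} (hv : w v ≤ 1) :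
    w ((1 + v) ^ p - 1 - v ^ p) ≤ ‖(p : C)‖ * w v := by
  obtain ⟨r, hr⟩ := exists_add_pow_prime_eq hp (1 : w.ring) ⟨v, hv⟩
  have h1 := congrArg (Subtype.val (p := fun x => x ∈ w.ring)) hr
  have h2 : (1 + v) ^ p = 1 ^ p + v ^ p + p * 1 * v * (r : K) := by
    simpa using h1
  have h3 : (1 + v) ^ p - 1 - v ^ p = p * v * (r : K) := by
    rw [h2]; ring
  rw [h3, map_mul, map_mul, w_natCast]
  exact mul_le_of_le_one_right (by positivity) r.2

theorem red_pow_of_near (hp : p.Prime) (hpC : ‖(p : C)‖ < 1) (h0 : (p : C) ≠ 0)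
    (hl : l ^ (p - 1) = -(p : C)) {w : NV C K} {f y A : K} (hy : y ≠ 0)
    (hf : f = y ^ p * (1 + algebraMap C K l ^ p * A)) (hA1 : 1 < w A)
    (hA2 : ‖l‖ ^ p * w A < 1) (hn : NearW p w f) [IsAlgClosed C] {c : C} (hc : w A = ‖c‖) :
    ∃ g : kap w, w.red (A / algebraMap C K c) = g ^ p := by
  have hl0 : 0 < ‖l‖ := norm_l_pos hp h0 hl
  have hlp0 : 0 < ‖l‖ ^ p := pow_pos hl0 _
  obtain ⟨y', hy', h1⟩ := hn
  have h2 := le_of_pow_le' hp hl h1
  set L := algebraMap C K l with hL
  have hwL : w L = ‖l‖ := w.ext' l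
  set h := f / y' ^ p - 1 with hh
  set u := y' / y with hu
  have hu0 : u ≠ 0 := div_ne_zero hy' hy
  have key : 1 + L ^ p * A = u ^ p * (1 + h) := by
    have hyp : y ^ p ≠ 0 := pow_ne_zero _ hy
    have hyp' : y' ^ p ≠ 0 := pow_ne_zero _ hy'
    rw [hh, hu, hf, div_pow]
    field_simp
    ring
  have hwLA : w (L ^ p * A) = ‖l‖ ^ p * w A := by rw [map_mul, map_pow, hwL]
  have hl1 : ‖l‖ ^ p < 1 := by
    refine lt_trans ?_ hA2
    exact lt_mul_of_one_lt_right hlp0 hA1
  have hu1 : w u = 1 := by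
    have h3 := congrArg w.av key
    have h4 : w.av (1 + L ^ p * A) = 1 := w_one_add_of_lt (by rw [hwLA]; exact hA2)
    have h5 : w.av (1 + h) = 1 := w_one_add_of_lt (h2.trans_lt hl1)
    rw [h4, map_mul, h5, mul_one, map_pow] at h3
    exact (pow_eq_one_iff_of_nonneg (w.av.nonneg _) hp.ne_zero).1 h3.symm
  set v := u - 1 with hv
  have hv1 : w v ≤ 1 := NV.sub_le hu1.le (by rw [map_one])
  have huv : u = 1 + v := by rw [hv]; ring
  have hr := w_one_add_pow_sub (C := C) hp hv1
  rw [← huv] at hr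
  -- `u ^ p - 1 = L ^ p * A - u ^ p * h`
  have hk2 : u ^ p - 1 = L ^ p * A - u ^ p * h := by
    have : u ^ p * (1 + h) = u ^ p + u ^ p * h := by ring
    rw [this] at key
    linear_combination -key
  have hwuh : w (u ^ p * h) ≤ ‖l‖ ^ p := by
    rw [map_mul, map_pow, hu1, one_pow, one_mul]
    exact h2
  have hlt : ‖l‖ ^ p < ‖l‖ ^ p * w A := lt_mul_of_one_lt_right hlp0 hA1
  -- `|v| > |l|`
  have hvl : ‖l‖ < w v := by
    by_contra hcon
    push Not at hcon
    have h3 : w (v ^ p) ≤ ‖l‖ ^ p := by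
      rw [map_pow]
      exact pow_le_pow_left₀ (w.av.nonneg _) hcon p
    have h4 : w (u ^ p - 1 - v ^ p) ≤ ‖l‖ ^ p := by
      refine hr.trans ?_
      have h5 : ‖l‖ ^ p = ‖(p : C)‖ * ‖l‖ := by
        rw [← norm_l_pow hl, ← pow_succ, Nat.sub_add_cancel hp.one_le]
      rw [h5]
      exact mul_le_mul_of_nonneg_left hcon (norm_nonneg _)
    have h5 : w (L ^ p * A) ≤ ‖l‖ ^ p := by
      have h6 : L ^ p * A = (u ^ p - 1 - v ^ p) + v ^ p + u ^ p * h := by
        linear_combination -hk2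
      rw [h6]
      exact NV.add_le (NV.add_le h4 h3) hwuh
    rw [hwLA] at h5
    exact absurd h5 (not_le.2 hlt)
  have hv0 : 0 < w v := hl0.trans hvl
  have hvr : w (u ^ p - 1 - v ^ p) < w v ^ p := by
    refine hr.trans_lt ?_
    have h5 : w v ^ p = w v ^ (p - 1) * w v := by
      rw [← pow_succ, Nat.sub_add_cancel hp.one_le]
    rw [h5, ← norm_l_pow hl]
    refine mul_lt_mul_of_pos_right ?_ hv0
    exact pow_lt_pow_left₀ hvl hl0.le (Nat.sub_ne_zero_of_lt hp.one_lt)
  -- `|v| ^ p = |l| ^ p |A|`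
  have hwv : w v ^ p = ‖l‖ ^ p * w A := by
    have h6 : L ^ p * A = v ^ p + ((u ^ p - 1 - v ^ p) + u ^ p * h) := by
      linear_combination -hk2
    have h7 : v ^ p = L ^ p * A - ((u ^ p - 1 - v ^ p) + u ^ p * h) := by
      rw [h6]; ring
    apply le_antisymm
    · by_contra hcon
      push Not at hcon
      have h8 : w (v ^ p) < w v ^ p := by
        rw [h7]
        refine NV.sub_lt (by rw [hwLA]; exact hcon) (NV.add_lt hvr ?_)
        exact hwuh.trans_lt (hlt.trans hcon)
      rw [map_pow] at h8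
      exact lt_irrefl _ h8
    · by_contra hcon
      push Not at hcon
      have h8 : w (L ^ p * A) < ‖l‖ ^ p * w A := by
        rw [h6]
        refine NV.add_lt (by rw [map_pow]; exact hcon) (NV.add_lt (hvr.trans hcon) ?_)
        exact hwuh.trans_lt hlt
      rw [hwLA] at h8
      exact lt_irrefl _ h8
  have hdiff : w (L ^ p * A - v ^ p) < ‖l‖ ^ p * w A := by
    have h6 : L ^ p * A - v ^ p = (u ^ p - 1 - v ^ p) + u ^ p * h := by
      linear_combination -hk2
    rw [h6]
    refine NV.add_lt (hvr.trans_eq hwv) (hwuh.trans_lt hlt)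
  -- divide by `l ^ p c`
  have hc0 : c ≠ 0 := by
    rintro rfl
    rw [norm_zero] at hc
    rw [hc] at hA1
    exact absurd hA1 (not_lt.2 zero_le_one)
  obtain ⟨e, he⟩ := IsAlgClosed.exists_pow_nat_eq c hp.pos
  have he0 : e ≠ 0 := by
    rintro rfl
    rw [zero_pow hp.ne_zero] at he
    exact hc0 he.symm
  have hcn : 0 < ‖c‖ := norm_pos_iff.2 hc0
  have hLK : L ≠ 0 := by
    rw [hL, Ne, map_eq_zero]
    exact norm_pos_iff.1 hl0
  have heK : algebraMap C K e ≠ 0 := by rwa [Ne, map_eq_zero]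
  have hcK : algebraMap C K c = algebraMap C K e ^ p := by rw [← map_pow, he]
  set b := v / (L * algebraMap C K e) with hb
  have hbp : w b ^ p = 1 := by
    rw [← map_pow, hb, div_pow, mul_pow, ← hcK, map_div₀, map_mul, map_pow, map_pow, hwL, w.ext',
      hwv, hc, div_self]
    exact (mul_pos hlp0 hcn).ne'
  have hb1 : w b = 1 := (pow_eq_one_iff_of_nonneg (w.av.nonneg _) hp.ne_zero).1 hbp
  have hAc : w (A / algebraMap C K c) ≤ 1 := by
    rw [map_div₀, w.ext', hc, div_self hcn.ne']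
  have hd : w (A / algebraMap C K c - b ^ p) < 1 := by
    have h6 : A / algebraMap C K c - b ^ p =
        (L ^ p * A - v ^ p) / (L ^ p * algebraMap C K c) := by
      rw [hb, div_pow, mul_pow, ← hcK]
      have : algebraMap C K c ≠ 0 := by rwa [Ne, map_eq_zero]
      field_simp
    rw [h6, map_div₀, map_mul, map_pow, hwL, w.ext', ← hc, div_lt_one (by rw [hc]; positivity)]
    exact hdiff
  refine ⟨w.red b, ?_⟩
  have h9 : A / algebraMap C K c = (A / algebraMap C K c - b ^ p) + b ^ p := by ring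
  rw [h9, NV.red_add hd.le (NV.pow_le_one' hb1.le p), NV.red_of_lt hd, zero_add,
    NV.red_pow hb1.le]

end P025H376
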